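import Vale.Agent.P034.Main

namespace Vale.Agent.Results.P034.Talagrand

open Finset

/-- `F` is `p`-small: some cover `G` of `F` has cost `∑_{S ∈ G} p^|S| ≤ 1/2`. -/
def IsSmall {X : Type} (F : Finset (Finset X)) (p : ℝ) : Prop :=
  ∃ G : Finset (Finset X), (∀ H ∈ F, ∃ S ∈ G, S ⊆ H) ∧ ∑ S ∈ G, p ^ S.card ≤ 1 / 2

/-- Some fractional cover `g : 2^X → [0,1]` of `F` has cost `∑_S g(S) p^|S| ≤ 1/2`. -/
def IsFracSmall {X : Type} [Fintype X] (F : Finset (Finset X)) (p : ℝ) : Prop :=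
  ∃ g : Finset X → ℝ, (∀ S, 0 ≤ g S ∧ g S ≤ 1) ∧ (∀ H ∈ F, 1 ≤ ∑ S ∈ H.powerset, g S) ∧
    ∑ S : Finset X, g S * p ^ S.card ≤ 1 / 2

/-- The expectation threshold. -/
noncomputable def q {X : Type} (F : Finset (Finset X)) : ℝ :=
  sSup {p | p ∈ Set.Icc (0 : ℝ) 1 ∧ IsSmall F p}

/-- The fractional expectation threshold. -/
noncomputable def qf {X : Type} [Fintype X] (F : Finset (Finset X)) : ℝ :=
  sSup {p | p ∈ Set.Icc (0 : ℝ) 1 ∧ IsFracSmall F p}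

theorem result : ∃ K : ℝ, 0 < K ∧ ∀ (X : Type) [Fintype X] [Nonempty X] (F : Finset (Finset X)),
    F.Nonempty → ∅ ∉ F → (∀ A ∈ F, ∀ B, A ⊆ B → B ∈ F) → qf F ≤ K * q F := by
  classical
  refine ⟨2880 * 16 ^ 8, by positivity, fun X _ _ F hF _ _ => ?_⟩
  have hq : 0 ≤ q F := Real.sSup_nonneg fun p hp => hp.1.1
  refine Real.sSup_le ?_ (by positivity)
  rintro r ⟨⟨r0, r1⟩, g, hg, hcov, hw⟩
  rcases r0.eq_or_lt with rfl | r0
  · positivity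
  obtain ⟨J, p, hp, p1, p2, hπ⟩ := Vale.Agent.P034.exists_J (p0 := r / (288 * 16 ^ 8))
    (by positivity) (by linarith)
  have h := Vale.Agent.P034.small F hF g (fun S => (hg S).1) hcov hp hw (by linarith) hπ
  have : p ≤ q F := le_csSup ⟨1, fun x hx => hx.1.2⟩ ⟨⟨hp.le, by linarith⟩, h⟩
  linarith

end Vale.Agent.Results.P034.Talagrand
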